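import Vale.Agent.H7.KTV.JSTransfer
import Vale.Agent.H40.KTV.GBlock
import Vale.Agent.H73.KTV.JohnsonSurplus

/-!
P335, simple-graph split, ROW R2: the Johnson surplus inequality on the pair fibres (`js`,
`js_weak`), from the fibre parametrisation (`hmodel`, the statement of `fibre_model`) alone:
the facts about the switch involution come from `Vale.Agent.H40.KTV.GBlock` and the
Johnson-scheme inequality from `Vale.Agent.H73.johnson_surplus`.
-/

namespace Vale.Agent.H7

open Finset SimpleGraph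
open scoped Classical
open Vale.Agent.H90 (dot avgRel)
open Vale.Agent.H40.KTV

variable {V : Type} [Fintype V]

theorem js_of_fibre
    (hmodel : ∀ (u v : V), u ≠ v → ∀ G0 : SimpleGraph V,
      ∃ (A : Finset V) (k : ℕ) (S : SimpleGraph V → Finset V),
        u ∉ A ∧ v ∉ A ∧
        Set.BijOn S {H | RP u v G0 H} (↑(A.powersetCard k)) ∧
        (∀ H, RP u v G0 H → ∀ w z, Dist4 u v w z →
          (T u v w z H ≠ H ↔ w ∈ A ∧ z ∈ A ∧ ((w ∈ S H) ≠ (z ∈ S H)))) ∧
        (∀ H, RP u v G0 H → ∀ w z, Dist4 u v w z → w ∈ S H → z ∈ A → z ∉ S H →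
          S (T u v w z H) = insert z ((S H).erase w)))
    (u v : V) (huv : u ≠ v) (f : SimpleGraph V → ℝ) :
    (∑ w, ∑ z, (if Dist4 u v w z then XT u v w z f else 0))
        + 2 * dot (QP u v f) (QP u v f)
      ≤ (1 / 4 : ℝ) * ∑ w, ∑ z, (if Dist4 u v w z then DT u v w z f else 0) :=
  js_of_model (fun _ _ _ _ h G => (congrFun (T_comm_wz h) G).symm)
    (fun _ _ _ _ h G => T_rp h G) hmodel
    (fun A k g => Vale.Agent.H73.johnson_surplus A k g) u v huv f

theorem js_weak_of_fibre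
    (hmodel : ∀ (u v : V), u ≠ v → ∀ G0 : SimpleGraph V,
      ∃ (A : Finset V) (k : ℕ) (S : SimpleGraph V → Finset V),
        u ∉ A ∧ v ∉ A ∧
        Set.BijOn S {H | RP u v G0 H} (↑(A.powersetCard k)) ∧
        (∀ H, RP u v G0 H → ∀ w z, Dist4 u v w z →
          (T u v w z H ≠ H ↔ w ∈ A ∧ z ∈ A ∧ ((w ∈ S H) ≠ (z ∈ S H)))) ∧
        (∀ H, RP u v G0 H → ∀ w z, Dist4 u v w z → w ∈ S H → z ∈ A → z ∉ S H →
          S (T u v w z H) = insert z ((S H).erase w)))
    (u v : V) (huv : u ≠ v) (f : SimpleGraph V → ℝ) :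
    (∑ w, ∑ z, (if Dist4 u v w z then XT u v w z f else 0))
      ≤ (1 / 4 : ℝ) * ∑ w, ∑ z, (if Dist4 u v w z then DT u v w z f else 0) := by
  have h := js_of_fibre hmodel u v huv f
  have h2 := Vale.Agent.H90.dot_self_nonneg (QP u v f)
  linarith

end Vale.Agent.H7
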