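import Vale.Agent.H40.KTV.GDefs

/-!
P335, simple-graph split, ROW R2 (second half: sums bookkeeping).

Generic transfer of an inequality on the Johnson scheme (`k`-subsets of a finite set) to the
pair fibres of the graph model of `Vale.Agent.H40.KTV.GDefs`, in hypotheses-form:
`js_of_model` and `js_weak_of_model` derive the row statements `js` / `js_weak` from
* the two basic facts about the switch involution `T` (symmetry in the second pair and
  `RP u v G (T u v w z G)`),
* the fibre parametrisation (`hmodel`: free set `A`, size `k`, map `S` from the pair fibre onto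
  the `k`-subsets of `A`, compatible with `T`),
* the Johnson-scheme inequality (`hJ`).
-/

namespace Vale.Agent.H7

open Finset SimpleGraph
open scoped Classical
open Vale.Agent.H90 (dot avgRel)
open Vale.Agent.H40.KTV

variable {V : Type} [Fintype V]

/-- The pair-fibre relation is an equivalence. -/
theorem jst_rp_equiv (u v : V) : Equivalence (RP (V := V) u v) := by
  refine ⟨fun G => ⟨fun _ => rfl, fun _ _ => Iff.rfl⟩, ?_, ?_⟩
  · intro G H h
    exact ⟨fun x => (h.1 x).symm, fun e he => (h.2 e he).symm⟩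
  · intro G H K h1 h2
    exact ⟨fun x => (h1.1 x).trans (h2.1 x), fun e he => (h1.2 e he).trans (h2.2 e he)⟩

/-- Comparison of two sums class by class. -/
theorem jst_sum_le_of_classes {Ω : Type*} [Fintype Ω] (r : Ω → Ω → Prop) [DecidableRel r]
    (hr : Equivalence r) (φ ψ : Ω → ℝ)
    (h : ∀ x0, ∑ x ∈ univ.filter (fun x => r x0 x), φ x ≤ ∑ x ∈ univ.filter (fun x => r x0 x), ψ x) :
    ∑ x, φ x ≤ ∑ x, ψ x := by
  have key : ∀ χ : Ω → ℝ, ∑ x, χ x = ∑ x, avgRel r χ x := by
    intro χ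
    have h1 := Vale.Agent.H90.avgRel_dot hr (fun _ => (1 : ℝ)) χ
    have h2 : avgRel r (fun _ => (1 : ℝ)) = fun _ => (1 : ℝ) :=
      Vale.Agent.H90.avgRel_eq_self hr _ (fun _ _ _ => rfl)
    rw [h2] at h1
    unfold dot at h1
    simp only [one_mul] at h1
    exact h1.symm
  rw [key φ, key ψ]
  refine Finset.sum_le_sum (fun x _ => ?_)
  unfold avgRel
  exact div_le_div_of_nonneg_right (h x) (Nat.cast_nonneg _)

/-- A double sum with a membership condition as a double sum over a finset. -/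
theorem jst_sum_offdiag (A : Finset V) (Z : V → V → ℝ) :
    (∑ w, ∑ z, (if w ∈ A ∧ z ∈ A ∧ w ≠ z then Z w z else 0)) =
      ∑ w ∈ A, ∑ z ∈ A.erase w, Z w z := by
  have e1 : ∀ w, (∑ z ∈ A.erase w, Z w z) = ∑ z, (if z ∈ A.erase w then Z w z else 0) := by
    intro w
    rw [Finset.sum_ite_mem, Finset.univ_inter]
  have e2 : (∑ w ∈ A, ∑ z ∈ A.erase w, Z w z) =
      ∑ w, (if w ∈ A then ∑ z ∈ A.erase w, Z w z else 0) := by
    rw [Finset.sum_ite_mem, Finset.univ_inter]
  rw [e2]
  refine Finset.sum_congr rfl (fun w _ => ?_)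
  by_cases hw : w ∈ A
  · rw [if_pos hw, e1 w]
    refine Finset.sum_congr rfl (fun z _ => ?_)
    by_cases hz : z ∈ A
    · by_cases hwz : w = z
      · subst hwz
        simp
      · have : z ∈ A.erase w := Finset.mem_erase.2 ⟨fun h => hwz h.symm, hz⟩
        rw [if_pos this, if_pos ⟨hw, hz, hwz⟩]
    · have : z ∉ A.erase w := fun h => hz (Finset.mem_of_mem_erase h)
      rw [if_neg this, if_neg (fun h => hz h.2.1)]
  · rw [if_neg hw]
    exact Finset.sum_eq_zero (fun z _ => if_neg (fun h => hw h.1))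

/-- A double sum with membership conditions as a double sum over two finsets. -/
theorem jst_sum_prod (s t : Finset V) (Z : V → V → ℝ) :
    (∑ w, ∑ z, (if w ∈ s ∧ z ∈ t then Z w z else 0)) = ∑ w ∈ s, ∑ z ∈ t, Z w z := by
  have e2 : (∑ w ∈ s, ∑ z ∈ t, Z w z) = ∑ w, (if w ∈ s then ∑ z ∈ t, Z w z else 0) := by
    rw [Finset.sum_ite_mem, Finset.univ_inter]
  rw [e2]
  refine Finset.sum_congr rfl (fun w _ => ?_)
  by_cases hw : w ∈ s
  · rw [if_pos hw]
    have : (∑ z ∈ t, Z w z) = ∑ z, (if z ∈ t then Z w z else 0) := by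
      rw [Finset.sum_ite_mem, Finset.univ_inter]
    rw [this]
    refine Finset.sum_congr rfl (fun z _ => ?_)
    by_cases hz : z ∈ t
    · rw [if_pos hz, if_pos ⟨hw, hz⟩]
    · rw [if_neg hz, if_neg (fun h => hz h.2)]
  · rw [if_neg hw]
    exact Finset.sum_eq_zero (fun z _ => if_neg (fun h => hw h.1))

section Fibre

variable (u v : V) (G0 : SimpleGraph V) (A : Finset V) (k : ℕ) (S : SimpleGraph V → Finset V)

/-- The inverse of the fibre parametrisation. -/
noncomputable def jstInv : Finset V → SimpleGraph V :=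
  Function.invFunOn S {H | RP u v G0 H}

theorem jstInv_spec (hbij : Set.BijOn S {H | RP u v G0 H} (↑(A.powersetCard k)))
    (s : Finset V) (hs : s ∈ A.powersetCard k) :
    RP u v G0 (jstInv u v G0 S s) ∧ S (jstInv u v G0 S s) = s :=
  Function.invFunOn_pos (hbij.surjOn (Finset.mem_coe.2 hs))

theorem jst_mem (hbij : Set.BijOn S {H | RP u v G0 H} (↑(A.powersetCard k)))
    (H : SimpleGraph V) (hH : RP u v G0 H) : S H ∈ A.powersetCard k :=
  Finset.mem_coe.1 (hbij.mapsTo hH)

theorem jstInv_left (hbij : Set.BijOn S {H | RP u v G0 H} (↑(A.powersetCard k)))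
    (H : SimpleGraph V) (hH : RP u v G0 H) : jstInv u v G0 S (S H) = H := by
  have h1 := jstInv_spec u v G0 A k S hbij (S H) (jst_mem u v G0 A k S hbij H hH)
  exact hbij.injOn h1.1 hH h1.2

/-- Sums over a part of a pair fibre as sums over a family of `k`-subsets of the free set. -/
theorem jst_fibre_sum (hbij : Set.BijOn S {H | RP u v G0 H} (↑(A.powersetCard k)))
    (F' : Finset (SimpleGraph V)) (P' : Finset (Finset V))
    (hF : ∀ H ∈ F', RP u v G0 H) (hP : ∀ s ∈ P', s ∈ A.powersetCard k)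
    (hFP : ∀ H, RP u v G0 H → (H ∈ F' ↔ S H ∈ P'))
    (Φ : SimpleGraph V → ℝ) (Ψ : Finset V → ℝ) (hΦ : ∀ H ∈ F', Φ H = Ψ (S H)) :
    ∑ H ∈ F', Φ H = ∑ s ∈ P', Ψ s := by
  refine Finset.sum_nbij' S (jstInv u v G0 S) ?_ ?_ ?_ ?_ ?_
  · intro H hH
    exact (hFP H (hF H hH)).1 hH
  · intro s hs
    have h1 := jstInv_spec u v G0 A k S hbij s (hP s hs)
    refine (hFP _ h1.1).2 ?_
    rw [h1.2]
    exact hs
  · intro H hH
    exact jstInv_left u v G0 A k S hbij H (hF H hH)
  · intro s hs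
    exact (jstInv_spec u v G0 A k S hbij s (hP s hs)).2
  · intro H hH
    exact hΦ H hH

/-- The average over the pair fibre. -/
theorem jst_avg (hbij : Set.BijOn S {H | RP u v G0 H} (↑(A.powersetCard k)))
    (f : SimpleGraph V → ℝ) (H : SimpleGraph V) (hH : RP u v G0 H) :
    avgRel (RP u v) f H =
      (∑ s ∈ A.powersetCard k, f (jstInv u v G0 S s)) / ((A.powersetCard k).card : ℝ) := by
  have hE := jst_rp_equiv (V := V) u v
  have hF : ∀ y ∈ univ.filter (fun y => RP u v H y), RP u v G0 y := by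
    intro y hy
    exact hE.trans hH (Finset.mem_filter.1 hy).2
  have hFP : ∀ y, RP u v G0 y → (y ∈ univ.filter (fun y => RP u v H y) ↔
      S y ∈ A.powersetCard k) := by
    intro y hy
    simp only [mem_filter, mem_univ, true_and]
    exact ⟨fun _ => jst_mem u v G0 A k S hbij y hy, fun _ => hE.trans (hE.symm hH) hy⟩
  have h1 := jst_fibre_sum u v G0 A k S hbij (univ.filter (fun y => RP u v H y))
    (A.powersetCard k) hF (fun s hs => hs) hFP f (fun s => f (jstInv u v G0 S s))
    (fun y hy => by rw [jstInv_left u v G0 A k S hbij y (hF y hy)])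
  have h2 := jst_fibre_sum u v G0 A k S hbij (univ.filter (fun y => RP u v H y))
    (A.powersetCard k) hF (fun s hs => hs) hFP (fun _ => 1) (fun _ => 1) (fun _ _ => rfl)
  simp only [Finset.sum_const, nsmul_eq_mul, mul_one] at h2
  unfold avgRel
  rw [h1, h2]

/-- The average over the switchable part of the pair fibre. -/
theorem jst_avgA (hbij : Set.BijOn S {H | RP u v G0 H} (↑(A.powersetCard k)))
    (hP1 : ∀ H, RP u v G0 H → ∀ w z, Dist4 u v w z →
      (T u v w z H ≠ H ↔ w ∈ A ∧ z ∈ A ∧ ((w ∈ S H) ≠ (z ∈ S H))))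
    (f : SimpleGraph V → ℝ) (H : SimpleGraph V) (hH : RP u v G0 H) (w z : V)
    (hd : Dist4 u v w z) (hw : w ∈ A) (hz : z ∈ A) :
    avgRel (RPA u v w z) f H =
      (∑ s ∈ (A.powersetCard k).filter (fun s => (w ∈ s) ≠ (z ∈ s)), f (jstInv u v G0 S s)) /
        (((A.powersetCard k).filter (fun s => (w ∈ s) ≠ (z ∈ s))).card : ℝ) := by
  have hE := jst_rp_equiv (V := V) u v
  have hF : ∀ y ∈ univ.filter (fun y => RPA u v w z H y), RP u v G0 y := by
    intro y hy
    exact hE.trans hH (Finset.mem_filter.1 hy).2.1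
  have hFP : ∀ y, RP u v G0 y → (y ∈ univ.filter (fun y => RPA u v w z H y) ↔
      S y ∈ (A.powersetCard k).filter (fun s => (w ∈ s) ≠ (z ∈ s))) := by
    intro y hy
    rw [Finset.mem_filter, Finset.mem_filter]
    constructor
    · intro h
      exact ⟨jst_mem u v G0 A k S hbij y hy, ((hP1 y hy w z hd).1 h.2.2).2.2⟩
    · intro h
      exact ⟨Finset.mem_univ _, hE.trans (hE.symm hH) hy, (hP1 y hy w z hd).2 ⟨hw, hz, h.2⟩⟩
  have h1 := jst_fibre_sum u v G0 A k S hbij (univ.filter (fun y => RPA u v w z H y))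
    ((A.powersetCard k).filter (fun s => (w ∈ s) ≠ (z ∈ s))) hF
    (fun s hs => (Finset.mem_filter.1 hs).1) hFP f (fun s => f (jstInv u v G0 S s))
    (fun y hy => by rw [jstInv_left u v G0 A k S hbij y (hF y hy)])
  have h2 := jst_fibre_sum u v G0 A k S hbij (univ.filter (fun y => RPA u v w z H y))
    ((A.powersetCard k).filter (fun s => (w ∈ s) ≠ (z ∈ s))) hF
    (fun s hs => (Finset.mem_filter.1 hs).1) hFP (fun _ => 1) (fun _ => 1) (fun _ _ => rfl)
  simp only [Finset.sum_const, nsmul_eq_mul, mul_one] at h2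
  unfold avgRel
  rw [h1, h2]

/-- Values of `f` along a switch of the block, in the parametrisation. -/
theorem jst_T (hbij : Set.BijOn S {H | RP u v G0 H} (↑(A.powersetCard k)))
    (hP2 : ∀ H, RP u v G0 H → ∀ w z, Dist4 u v w z → w ∈ S H → z ∈ A → z ∉ S H →
      S (T u v w z H) = insert z ((S H).erase w))
    (hTrp : ∀ (w z : V), Dist4 u v w z → ∀ G : SimpleGraph V, RP u v G (T u v w z G))
    (f : SimpleGraph V → ℝ) (H : SimpleGraph V) (hH : RP u v G0 H) (w z : V)
    (hd : Dist4 u v w z) (hw : w ∈ S H) (hz : z ∈ A) (hzs : z ∉ S H) :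
    f (T u v w z H) = f (jstInv u v G0 S (insert z ((S H).erase w))) := by
  have hE := jst_rp_equiv (V := V) u v
  have h3 := hP2 H hH w z hd hw hz hzs
  have h4 : RP u v G0 (T u v w z H) := hE.trans hH (hTrp w z hd H)
  have h5 := jstInv_left u v G0 A k S hbij (T u v w z H) h4
  rw [h3] at h5
  rw [h5]

/-- The left side of the surplus inequality on one fibre. -/
theorem jst_class_lhs (c : ℝ) (huv : u ≠ v) (huA : u ∉ A) (hvA : v ∉ A)
    (hbij : Set.BijOn S {H | RP u v G0 H} (↑(A.powersetCard k)))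
    (hP1 : ∀ H, RP u v G0 H → ∀ w z, Dist4 u v w z →
      (T u v w z H ≠ H ↔ w ∈ A ∧ z ∈ A ∧ ((w ∈ S H) ≠ (z ∈ S H))))
    (f : SimpleGraph V → ℝ) (ft : Finset V → ℝ) (hft : ∀ s, ft s = f (jstInv u v G0 S s)) :
    ∑ H ∈ univ.filter (fun H => RP u v G0 H),
        ((∑ w, ∑ z, (if Dist4 u v w z then (if T u v w z H ≠ H then
            (avgRel (RPA u v w z) f H - avgRel (RP u v) f H) ^ 2 else 0) else 0))
          + c * (QP u v f H * QP u v f H)) =
      (∑ w ∈ A, ∑ z ∈ A.erase w,
        (((A.powersetCard k).filter (fun s => (w ∈ s) ≠ (z ∈ s))).card : ℝ) *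
          ((∑ s ∈ (A.powersetCard k).filter (fun s => (w ∈ s) ≠ (z ∈ s)), ft s) /
              (((A.powersetCard k).filter (fun s => (w ∈ s) ≠ (z ∈ s))).card : ℝ)
            - (∑ s ∈ A.powersetCard k, ft s) / ((A.powersetCard k).card : ℝ)) ^ 2)
        + c * ∑ s ∈ A.powersetCard k,
            (ft s - (∑ s' ∈ A.powersetCard k, ft s') / ((A.powersetCard k).card : ℝ)) ^ 2 := by
  have hft' : (fun s => f (jstInv u v G0 S s)) = ft := funext (fun s => (hft s).symm)
  obtain ⟨m, hm⟩ : ∃ m : ℝ, m = (∑ s ∈ A.powersetCard k, ft s) / ((A.powersetCard k).card : ℝ) :=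
    ⟨_, rfl⟩
  obtain ⟨m2, hm2⟩ : ∃ m2 : V → V → ℝ, ∀ w z, m2 w z =
      (∑ s ∈ (A.powersetCard k).filter (fun s => (w ∈ s) ≠ (z ∈ s)), ft s) /
        (((A.powersetCard k).filter (fun s => (w ∈ s) ≠ (z ∈ s))).card : ℝ) :=
    ⟨fun w z => _, fun _ _ => rfl⟩
  simp only [← hm, ← hm2]
  have hF : ∀ H ∈ univ.filter (fun H => RP u v G0 H), RP u v G0 H :=
    fun H hH => (Finset.mem_filter.1 hH).2
  have hFP : ∀ H, RP u v G0 H → (H ∈ univ.filter (fun H => RP u v G0 H) ↔
      S H ∈ A.powersetCard k) := by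
    intro H hH
    simp only [mem_filter, mem_univ, true_and]
    exact ⟨fun _ => jst_mem u v G0 A k S hbij H hH, fun _ => hH⟩
  have h1 := jst_fibre_sum u v G0 A k S hbij (univ.filter (fun H => RP u v G0 H))
    (A.powersetCard k) hF (fun s hs => hs) hFP
    (fun H => (∑ w, ∑ z, (if Dist4 u v w z then (if T u v w z H ≠ H then
            (avgRel (RPA u v w z) f H - avgRel (RP u v) f H) ^ 2 else 0) else 0))
          + c * (QP u v f H * QP u v f H))
    (fun s => (∑ w, ∑ z, (if w ∈ A ∧ z ∈ A ∧ w ≠ z then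
        (if (w ∈ s) ≠ (z ∈ s) then (m2 w z - m) ^ 2 else 0) else 0))
          + c * ((ft s - m) * (ft s - m)))
    (by
      intro H hH0
      have hH := hF H hH0
      have havg : avgRel (RP u v) f H = m := by
        rw [jst_avg u v G0 A k S hbij f H hH, hft', hm]
      have hfH : f H = ft (S H) := by
        rw [hft, jstInv_left u v G0 A k S hbij H hH]
      show _ + _ = _ + _
      congr 1
      · refine Finset.sum_congr rfl (fun w _ => Finset.sum_congr rfl (fun z _ => ?_))
        by_cases hd : Dist4 u v w z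
        · rw [if_pos hd]
          by_cases hT : T u v w z H ≠ H
          · have h3 := (hP1 H hH w z hd).1 hT
            rw [if_pos hT, if_pos ⟨h3.1, h3.2.1, hd.2.2.2.2.2⟩, if_pos h3.2.2,
              jst_avgA u v G0 A k S hbij hP1 f H hH w z hd h3.1 h3.2.1, havg, hft', hm2]
          · rw [if_neg hT]
            by_cases hA : w ∈ A ∧ z ∈ A ∧ w ≠ z
            · rw [if_pos hA, if_neg]
              intro hne
              exact hT ((hP1 H hH w z hd).2 ⟨hA.1, hA.2.1, hne⟩)
            · rw [if_neg hA]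
        · rw [if_neg hd, if_neg]
          rintro ⟨hw, hz, hwz⟩
          exact hd ⟨huv, fun h => huA (by rw [h]; exact hw), fun h => huA (by rw [h]; exact hz),
            fun h => hvA (by rw [h]; exact hw), fun h => hvA (by rw [h]; exact hz), hwz⟩
      · unfold QP
        simp only [Pi.sub_apply]
        rw [havg, hfH])
  rw [h1, Finset.sum_add_distrib, ← Finset.mul_sum]
  congr 1
  · rw [Finset.sum_comm]
    rw [← jst_sum_offdiag]
    refine Finset.sum_congr rfl (fun w _ => ?_)
    rw [Finset.sum_comm]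
    refine Finset.sum_congr rfl (fun z _ => ?_)
    by_cases hA : w ∈ A ∧ z ∈ A ∧ w ≠ z
    · simp only [if_pos hA]
      rw [Finset.sum_ite, Finset.sum_const, Finset.sum_const_zero, add_zero, nsmul_eq_mul]
    · simp only [if_neg hA]
      exact Finset.sum_const_zero
  · congr 1
    refine Finset.sum_congr rfl (fun s _ => ?_)
    ring

/-- The right side of the surplus inequality on one fibre. -/
theorem jst_class_rhs (huv : u ≠ v) (huA : u ∉ A) (hvA : v ∉ A)
    (hbij : Set.BijOn S {H | RP u v G0 H} (↑(A.powersetCard k)))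
    (hP1 : ∀ H, RP u v G0 H → ∀ w z, Dist4 u v w z →
      (T u v w z H ≠ H ↔ w ∈ A ∧ z ∈ A ∧ ((w ∈ S H) ≠ (z ∈ S H))))
    (hP2 : ∀ H, RP u v G0 H → ∀ w z, Dist4 u v w z → w ∈ S H → z ∈ A → z ∉ S H →
      S (T u v w z H) = insert z ((S H).erase w))
    (hTsymm : ∀ (w z : V), Dist4 u v w z → ∀ G : SimpleGraph V, T u v w z G = T u v z w G)
    (hTrp : ∀ (w z : V), Dist4 u v w z → ∀ G : SimpleGraph V, RP u v G (T u v w z G))
    (f : SimpleGraph V → ℝ) (ft : Finset V → ℝ) (hft : ∀ s, ft s = f (jstInv u v G0 S s)) :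
    ∑ H ∈ univ.filter (fun H => RP u v G0 H),
        ((1 / 4 : ℝ) * ∑ w, ∑ z, (if Dist4 u v w z then (f H - f (T u v w z H)) ^ 2 else 0)) =
      (1 / 2 : ℝ) * ∑ s ∈ A.powersetCard k, ∑ x ∈ s, ∑ y ∈ A \ s,
        (ft s - ft (insert y (s.erase x))) ^ 2 := by
  have hF : ∀ H ∈ univ.filter (fun H => RP u v G0 H), RP u v G0 H :=
    fun H hH => (Finset.mem_filter.1 hH).2
  have hFP : ∀ H, RP u v G0 H → (H ∈ univ.filter (fun H => RP u v G0 H) ↔
      S H ∈ A.powersetCard k) := by
    intro H hH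
    simp only [mem_filter, mem_univ, true_and]
    exact ⟨fun _ => jst_mem u v G0 A k S hbij H hH, fun _ => hH⟩
  have hdist : ∀ w z, w ∈ A → z ∈ A → w ≠ z → Dist4 u v w z := by
    intro w z hw hz hwz
    exact ⟨huv, fun h => huA (by rw [h]; exact hw), fun h => huA (by rw [h]; exact hz),
      fun h => hvA (by rw [h]; exact hw), fun h => hvA (by rw [h]; exact hz), hwz⟩
  have h1 := jst_fibre_sum u v G0 A k S hbij (univ.filter (fun H => RP u v G0 H))
    (A.powersetCard k) hF (fun s hs => hs) hFP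
    (fun H => (1 / 4 : ℝ) * ∑ w, ∑ z,
      (if Dist4 u v w z then (f H - f (T u v w z H)) ^ 2 else 0))
    (fun s => (1 / 4 : ℝ) * ((∑ w, ∑ z, (if w ∈ s ∧ z ∈ A \ s then
        (ft s - ft (insert z (s.erase w))) ^ 2 else 0)) +
      (∑ w, ∑ z, (if w ∈ A \ s ∧ z ∈ s then
        (ft s - ft (insert w (s.erase z))) ^ 2 else 0))))
    (by
      intro H hH0
      have hH := hF H hH0
      have hs := jst_mem u v G0 A k S hbij H hH
      have hsA : S H ⊆ A := (Finset.mem_powersetCard.1 hs).1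
      have hfH : f H = ft (S H) := by
        rw [hft, jstInv_left u v G0 A k S hbij H hH]
      show _ * _ = _ * _
      congr 1
      rw [← Finset.sum_add_distrib]
      refine Finset.sum_congr rfl (fun w _ => ?_)
      rw [← Finset.sum_add_distrib]
      refine Finset.sum_congr rfl (fun z _ => ?_)
      by_cases h1 : w ∈ S H ∧ z ∈ A \ S H
      · have hz := Finset.mem_sdiff.1 h1.2
        have hd : Dist4 u v w z := hdist w z (hsA h1.1) hz.1 (fun h => hz.2 (by rw [← h]; exact h1.1))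
        have h2 : ¬ (w ∈ A \ S H ∧ z ∈ S H) := fun h => (Finset.mem_sdiff.1 h.1).2 h1.1
        rw [if_pos hd, if_pos h1, if_neg h2, add_zero,
          jst_T u v G0 A k S hbij hP2 hTrp f H hH w z hd h1.1 hz.1 hz.2, hfH, ← hft]
      · by_cases h2 : w ∈ A \ S H ∧ z ∈ S H
        · have hw := Finset.mem_sdiff.1 h2.1
          have hd : Dist4 u v w z := hdist w z hw.1 (hsA h2.2) (fun h => hw.2 (by rw [h]; exact h2.2))
          have hd' : Dist4 u v z w := hdist z w (hsA h2.2) hw.1 (fun h => hw.2 (by rw [← h]; exact h2.2))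
          rw [if_pos hd, if_neg h1, if_pos h2, zero_add, hTsymm w z hd H,
            jst_T u v G0 A k S hbij hP2 hTrp f H hH z w hd' h2.2 hw.1 hw.2, hfH, ← hft]
        · rw [if_neg h1, if_neg h2, add_zero]
          by_cases hd : Dist4 u v w z
          · rw [if_pos hd]
            have hT : T u v w z H = H := by
              by_contra hT
              obtain ⟨hw, hz, hne⟩ := (hP1 H hH w z hd).1 hT
              by_cases hws : w ∈ S H
              · exact h1 ⟨hws, Finset.mem_sdiff.2 ⟨hz, fun hzs => hne (by simp [hws, hzs])⟩⟩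
              · have hzs : z ∈ S H := by
                  by_contra hzs
                  exact hne (by simp [hws, hzs])
                exact h2 ⟨Finset.mem_sdiff.2 ⟨hw, hws⟩, hzs⟩
            rw [hT]
            simp
          · rw [if_neg hd])
  rw [h1, ← Finset.mul_sum]
  have h2 : ∀ s ∈ A.powersetCard k,
      ((∑ w, ∑ z, (if w ∈ s ∧ z ∈ A \ s then
        (ft s - ft (insert z (s.erase w))) ^ 2 else 0)) +
      (∑ w, ∑ z, (if w ∈ A \ s ∧ z ∈ s then
        (ft s - ft (insert w (s.erase z))) ^ 2 else 0))) =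
      2 * ∑ x ∈ s, ∑ y ∈ A \ s, (ft s - ft (insert y (s.erase x))) ^ 2 := by
    intro s _
    rw [jst_sum_prod s (A \ s) (fun w z => (ft s - ft (insert z (s.erase w))) ^ 2),
      jst_sum_prod (A \ s) s (fun w z => (ft s - ft (insert w (s.erase z))) ^ 2),
      Finset.sum_comm (s := A \ s) (t := s), two_mul]
  rw [Finset.sum_congr rfl h2, ← Finset.mul_sum]
  ring

end Fibre

/-- Exchange of the sums over the block and over the graphs. -/
theorem jst_swap_sums (c : V → V → Prop) (a : V → V → SimpleGraph V → ℝ) :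
    (∑ w, ∑ z, (if c w z then ∑ G, a w z G else 0)) =
      ∑ G, ∑ w, ∑ z, (if c w z then a w z G else 0) := by
  have e1 : ∀ w z, (if c w z then ∑ G, a w z G else 0) =
      ∑ G, (if c w z then a w z G else 0) := by
    intro w z
    by_cases h : c w z
    · simp only [if_pos h]
    · simp only [if_neg h]
      exact Finset.sum_const_zero.symm
  simp only [e1]
  calc ∑ w, ∑ z, ∑ G, (if c w z then a w z G else 0)
      = ∑ w, ∑ G, ∑ z, (if c w z then a w z G else 0) :=
        Finset.sum_congr rfl (fun w _ => Finset.sum_comm)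
    _ = ∑ G, ∑ w, ∑ z, (if c w z then a w z G else 0) := Finset.sum_comm

/-- Generic transfer of a Johnson-scheme inequality (with weight `c` on the variance term) to
the pair fibres of the graph model. -/
theorem jst_gen (c : ℝ)
    (hTsymm : ∀ (u v w z : V), Dist4 u v w z → ∀ G : SimpleGraph V,
      T u v w z G = T u v z w G)
    (hTrp : ∀ (u v w z : V), Dist4 u v w z → ∀ G : SimpleGraph V, RP u v G (T u v w z G))
    (hmodel : ∀ (u v : V), u ≠ v → ∀ G0 : SimpleGraph V,
      ∃ (A : Finset V) (k : ℕ) (S : SimpleGraph V → Finset V),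
        u ∉ A ∧ v ∉ A ∧
        Set.BijOn S {H | RP u v G0 H} (↑(A.powersetCard k)) ∧
        (∀ H, RP u v G0 H → ∀ w z, Dist4 u v w z →
          (T u v w z H ≠ H ↔ w ∈ A ∧ z ∈ A ∧ ((w ∈ S H) ≠ (z ∈ S H)))) ∧
        (∀ H, RP u v G0 H → ∀ w z, Dist4 u v w z → w ∈ S H → z ∈ A → z ∉ S H →
          S (T u v w z H) = insert z ((S H).erase w)))
    (hJ : ∀ (A : Finset V) (k : ℕ) (f : Finset V → ℝ),
      2 * ∑ w ∈ A, ∑ z ∈ A.erase w,
          (((A.powersetCard k).filter (fun T => (w ∈ T) ≠ (z ∈ T))).card : ℝ) *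
            ((∑ T ∈ (A.powersetCard k).filter (fun T => (w ∈ T) ≠ (z ∈ T)), f T) /
                (((A.powersetCard k).filter (fun T => (w ∈ T) ≠ (z ∈ T))).card : ℝ)
              - (∑ T ∈ A.powersetCard k, f T) / ((A.powersetCard k).card : ℝ)) ^ 2
        + (2 * c) * ∑ T ∈ A.powersetCard k,
            (f T - (∑ S ∈ A.powersetCard k, f S) / ((A.powersetCard k).card : ℝ)) ^ 2
        ≤ ∑ T ∈ A.powersetCard k, ∑ x ∈ T, ∑ y ∈ A \ T, (f T - f (insert y (T.erase x))) ^ 2)
    (u v : V) (huv : u ≠ v) (f : SimpleGraph V → ℝ) :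
    (∑ w, ∑ z, (if Dist4 u v w z then XT u v w z f else 0))
        + c * dot (QP u v f) (QP u v f)
      ≤ (1 / 4 : ℝ) * ∑ w, ∑ z, (if Dist4 u v w z then DT u v w z f else 0) := by
  have hL : (∑ w, ∑ z, (if Dist4 u v w z then XT u v w z f else 0))
        + c * dot (QP u v f) (QP u v f) =
      ∑ G, ((∑ w, ∑ z, (if Dist4 u v w z then (if T u v w z G ≠ G then
            (avgRel (RPA u v w z) f G - avgRel (RP u v) f G) ^ 2 else 0) else 0))
          + c * (QP u v f G * QP u v f G)) := by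
    unfold XT dot
    rw [jst_swap_sums, Finset.mul_sum, ← Finset.sum_add_distrib]
  have hR : (1 / 4 : ℝ) * ∑ w, ∑ z, (if Dist4 u v w z then DT u v w z f else 0) =
      ∑ G, ((1 / 4 : ℝ) * ∑ w, ∑ z,
        (if Dist4 u v w z then (f G - f (T u v w z G)) ^ 2 else 0)) := by
    unfold DT
    rw [jst_swap_sums, Finset.mul_sum]
  rw [hL, hR]
  refine jst_sum_le_of_classes (RP u v) (jst_rp_equiv u v) _ _ (fun G0 => ?_)
  obtain ⟨A, k, S, huA, hvA, hbij, hP1, hP2⟩ := hmodel u v huv G0
  have e1 := jst_class_lhs u v G0 A k S c huv huA hvA hbij hP1 f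
    (fun s => f (jstInv u v G0 S s)) (fun _ => rfl)
  have e2 := jst_class_rhs u v G0 A k S huv huA hvA hbij hP1 hP2 (hTsymm u v) (hTrp u v) f
    (fun s => f (jstInv u v G0 S s)) (fun _ => rfl)
  have e3 := hJ A k (fun s => f (jstInv u v G0 S s))
  calc _ = _ := e1
    _ ≤ _ := by linarith [e3]
    _ = _ := e2.symm

/-- ROW R2 (`js`) in hypotheses-form: the Johnson surplus inequality on the pair fibres, from
the fibre parametrisation and the Johnson-scheme inequality. -/
theorem js_of_model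
    (hTsymm : ∀ (u v w z : V), Dist4 u v w z → ∀ G : SimpleGraph V,
      T u v w z G = T u v z w G)
    (hTrp : ∀ (u v w z : V), Dist4 u v w z → ∀ G : SimpleGraph V, RP u v G (T u v w z G))
    (hmodel : ∀ (u v : V), u ≠ v → ∀ G0 : SimpleGraph V,
      ∃ (A : Finset V) (k : ℕ) (S : SimpleGraph V → Finset V),
        u ∉ A ∧ v ∉ A ∧
        Set.BijOn S {H | RP u v G0 H} (↑(A.powersetCard k)) ∧
        (∀ H, RP u v G0 H → ∀ w z, Dist4 u v w z →
          (T u v w z H ≠ H ↔ w ∈ A ∧ z ∈ A ∧ ((w ∈ S H) ≠ (z ∈ S H)))) ∧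
        (∀ H, RP u v G0 H → ∀ w z, Dist4 u v w z → w ∈ S H → z ∈ A → z ∉ S H →
          S (T u v w z H) = insert z ((S H).erase w)))
    (hJ : ∀ (A : Finset V) (k : ℕ) (f : Finset V → ℝ),
      2 * ∑ w ∈ A, ∑ z ∈ A.erase w,
          (((A.powersetCard k).filter (fun T => (w ∈ T) ≠ (z ∈ T))).card : ℝ) *
            ((∑ T ∈ (A.powersetCard k).filter (fun T => (w ∈ T) ≠ (z ∈ T)), f T) /
                (((A.powersetCard k).filter (fun T => (w ∈ T) ≠ (z ∈ T))).card : ℝ)
              - (∑ T ∈ A.powersetCard k, f T) / ((A.powersetCard k).card : ℝ)) ^ 2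
        + 4 * ∑ T ∈ A.powersetCard k,
            (f T - (∑ S ∈ A.powersetCard k, f S) / ((A.powersetCard k).card : ℝ)) ^ 2
        ≤ ∑ T ∈ A.powersetCard k, ∑ x ∈ T, ∑ y ∈ A \ T, (f T - f (insert y (T.erase x))) ^ 2)
    (u v : V) (huv : u ≠ v) (f : SimpleGraph V → ℝ) :
    (∑ w, ∑ z, (if Dist4 u v w z then XT u v w z f else 0))
        + 2 * dot (QP u v f) (QP u v f)
      ≤ (1 / 4 : ℝ) * ∑ w, ∑ z, (if Dist4 u v w z then DT u v w z f else 0) := by
  refine jst_gen 2 hTsymm hTrp hmodel (fun A k g => ?_) u v huv f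
  have h := hJ A k g
  have e : (2 : ℝ) * 2 = 4 := by norm_num
  rw [e]
  exact h

/-- ROW R2 (`js_weak`) in hypotheses-form, from the weak Johnson-scheme inequality. -/
theorem js_weak_of_model
    (hTsymm : ∀ (u v w z : V), Dist4 u v w z → ∀ G : SimpleGraph V,
      T u v w z G = T u v z w G)
    (hTrp : ∀ (u v w z : V), Dist4 u v w z → ∀ G : SimpleGraph V, RP u v G (T u v w z G))
    (hmodel : ∀ (u v : V), u ≠ v → ∀ G0 : SimpleGraph V,
      ∃ (A : Finset V) (k : ℕ) (S : SimpleGraph V → Finset V),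
        u ∉ A ∧ v ∉ A ∧
        Set.BijOn S {H | RP u v G0 H} (↑(A.powersetCard k)) ∧
        (∀ H, RP u v G0 H → ∀ w z, Dist4 u v w z →
          (T u v w z H ≠ H ↔ w ∈ A ∧ z ∈ A ∧ ((w ∈ S H) ≠ (z ∈ S H)))) ∧
        (∀ H, RP u v G0 H → ∀ w z, Dist4 u v w z → w ∈ S H → z ∈ A → z ∉ S H →
          S (T u v w z H) = insert z ((S H).erase w)))
    (hJ : ∀ (A : Finset V) (k : ℕ) (f : Finset V → ℝ),
      2 * ∑ w ∈ A, ∑ z ∈ A.erase w,
          (((A.powersetCard k).filter (fun T => (w ∈ T) ≠ (z ∈ T))).card : ℝ) *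
            ((∑ T ∈ (A.powersetCard k).filter (fun T => (w ∈ T) ≠ (z ∈ T)), f T) /
                (((A.powersetCard k).filter (fun T => (w ∈ T) ≠ (z ∈ T))).card : ℝ)
              - (∑ T ∈ A.powersetCard k, f T) / ((A.powersetCard k).card : ℝ)) ^ 2
        ≤ ∑ T ∈ A.powersetCard k, ∑ x ∈ T, ∑ y ∈ A \ T, (f T - f (insert y (T.erase x))) ^ 2)
    (u v : V) (huv : u ≠ v) (f : SimpleGraph V → ℝ) :
    (∑ w, ∑ z, (if Dist4 u v w z then XT u v w z f else 0))
      ≤ (1 / 4 : ℝ) * ∑ w, ∑ z, (if Dist4 u v w z then DT u v w z f else 0) := by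
  have h0 := jst_gen 0 hTsymm hTrp hmodel (fun A k g => by
    have h := hJ A k g
    rw [mul_zero, zero_mul, add_zero]
    exact h) u v huv f
  rw [zero_mul, add_zero] at h0
  exact h0

end Vale.Agent.H7
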