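import Vale.Agent.H90.KTV.Defs

/-!
# Johnson connectivity of a row-pair fibre (P335, TASK B2)

A function on Boolean matrices which is invariant under all margin-preserving column swaps inside
the rows `i, j` is constant on every fibre of the row pair `i, j`.
-/

namespace Vale.Agent.H7

open Vale.Agent.H90 Finset

variable {R C : Type*} [Fintype R] [DecidableEq R] [Fintype C] [DecidableEq C]

/-- Counting the `true` entries of a Boolean vector, with two coordinates split off. -/
lemma card_filter_true_split (i j : R) (hij : i ≠ j) (u : R → Bool) :
    (univ.filter (fun k => u k = true)).card
      = (if u i = true then 1 else 0) + ((if u j = true then 1 else 0)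
        + ∑ k ∈ (univ.erase i).erase j, if u k = true then 1 else 0) := by
  rw [Finset.card_filter, ← Finset.add_sum_erase _ _ (mem_univ i),
    ← Finset.add_sum_erase _ _ (mem_erase.mpr ⟨hij.symm, mem_univ j⟩)]

/-- Two Boolean vectors agreeing outside `i, j` have the same number of `true` entries iff they
have the same number of `true` entries among the coordinates `i, j`. -/
lemma card_filter_true_eq_iff (i j : R) (hij : i ≠ j) (u v : R → Bool)
    (hagree : ∀ k, k ≠ i → k ≠ j → u k = v k) :
    (univ.filter (fun k => u k = true)).card = (univ.filter (fun k => v k = true)).card ↔
      (if u i = true then 1 else 0) + (if u j = true then 1 else 0)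
        = (if v i = true then 1 else 0) + (if v j = true then (1 : ℕ) else 0) := by
  rw [card_filter_true_split i j hij u, card_filter_true_split i j hij v]
  have hrest : (∑ k ∈ (univ.erase i).erase j, if u k = true then 1 else 0)
      = ∑ k ∈ (univ.erase i).erase j, if v k = true then (1 : ℕ) else 0 := by
    refine Finset.sum_congr rfl fun k hk => ?_
    rw [mem_erase, mem_erase] at hk
    rw [hagree k hk.2.1 hk.1]
  rw [hrest]
  omega

omit [Fintype R] in
/-- Column swaps inside a set of rows preserve all row sums. -/
lemma rowSum_colSwap (S : Finset R) (x y : C) (G : R → C → Bool) (a : R) :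
    rowSum (colSwap S x y G) a = rowSum G a := by
  unfold rowSum colSwap
  by_cases ha : a ∈ S
  · simp only [ha, if_true]
    refine Finset.card_equiv (Equiv.swap x y) fun b => ?_
    simp only [mem_filter, mem_univ, true_and]
  · simp only [ha, if_false]

theorem johnson_inv {R C : Type*} [Fintype R] [DecidableEq R] [Fintype C] [DecidableEq C]
    {α : Type*} (i j : R) (hij : i ≠ j) (f : (R → C → Bool) → α)
    (hf : ∀ A x y, SameMarg A (colSwap {i, j} x y A) → f A = f (colSwap {i, j} x y A)) :
    ∀ G H, RelP i j G H → f G = f H := by
  intro G H
  generalize hn : (univ.filter (fun x => G i x ≠ H i x)).card = n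
  induction n using Nat.strong_induction_on generalizing G with
  | _ n ih =>
    intro hrel
    obtain ⟨hother, hrows, hcols⟩ := hrel
    -- the two-row equation in every column
    have hpair : ∀ b : C, (if G i b = true then 1 else 0) + (if G j b = true then 1 else 0)
        = (if H i b = true then 1 else 0) + (if H j b = true then (1 : ℕ) else 0) := by
      intro b
      exact (card_filter_true_eq_iff i j hij (fun k => G k b) (fun k => H k b)
        (fun k hki hkj => by rw [hother k hki hkj])).mp (hcols b)
    by_cases hrow : G i = H i
    · have hGH : G = H := by
        funext k b
        by_cases hki : k = i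
        · rw [hki, hrow]
        · by_cases hkj : k = j
          · have h1 := hpair b
            rw [hrow] at h1
            rw [hkj]
            cases hG : G j b <;> cases hH : H j b <;> simp [hG, hH] at h1 ⊢
          · rw [hother k hki hkj]
      rw [hGH]
    · -- a column where row i of G has an extra one, and one where it lacks a one
      have hcard : (univ.filter (fun b => G i b = true)).card
          = (univ.filter (fun b => H i b = true)).card := hrows i
      have hx : ∃ x, G i x = true ∧ H i x = false := by
        by_contra hcon
        push Not at hcon
        have hsub : univ.filter (fun b => G i b = true) ⊆ univ.filter (fun b => H i b = true) := by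
          intro b hb
          rw [mem_filter] at hb ⊢
          refine ⟨mem_univ _, ?_⟩
          have := hcon b hb.2
          simpa using this
        have heq := Finset.eq_of_subset_of_card_le hsub (le_of_eq hcard.symm)
        apply hrow
        funext b
        have h1 : b ∈ univ.filter (fun b => G i b = true) ↔
            b ∈ univ.filter (fun b => H i b = true) := by rw [heq]
        simp only [mem_filter, mem_univ, true_and] at h1
        cases hG : G i b <;> cases hH : H i b <;> simp [hG, hH] at h1 ⊢
      have hy : ∃ y, G i y = false ∧ H i y = true := by
        by_contra hcon
        push Not at hcon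
        have hsub : univ.filter (fun b => H i b = true) ⊆ univ.filter (fun b => G i b = true) := by
          intro b hb
          rw [mem_filter] at hb ⊢
          refine ⟨mem_univ _, ?_⟩
          by_contra hG
          have hG' : G i b = false := by simpa using hG
          exact hcon b hG' hb.2
        have heq := Finset.eq_of_subset_of_card_le hsub (le_of_eq hcard)
        apply hrow
        funext b
        have h1 : b ∈ univ.filter (fun b => H i b = true) ↔
            b ∈ univ.filter (fun b => G i b = true) := by rw [heq]
        simp only [mem_filter, mem_univ, true_and] at h1
        cases hG : G i b <;> cases hH : H i b <;> simp [hG, hH] at h1 ⊢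
      obtain ⟨x, hGx, hHx⟩ := hx
      obtain ⟨y, hGy, hHy⟩ := hy
      have hxy : x ≠ y := by
        rintro rfl
        rw [hGx] at hGy
        exact Bool.noConfusion hGy
      -- row j is forced in the columns x and y
      have hGjx : G j x = false := by
        have h1 := hpair x
        rw [hGx, hHx] at h1
        cases hG : G j x <;> cases hH : H j x <;> simp [hG, hH] at h1 ⊢
      have hGjy : G j y = true := by
        have h1 := hpair y
        rw [hGy, hHy] at h1
        cases hG : G j y <;> cases hH : H j y <;> simp [hG, hH] at h1 ⊢
      set A : R → C → Bool := colSwap {i, j} x y G with hA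
      have hAi : ∀ b, A i b = G i (Equiv.swap x y b) := by
        intro b
        simp [hA, colSwap]
      have hAj : ∀ b, A j b = G j (Equiv.swap x y b) := by
        intro b
        simp [hA, colSwap]
      have hAk : ∀ k, k ≠ i → k ≠ j → A k = G k := by
        intro k hki hkj
        funext b
        simp [hA, colSwap, hki, hkj]
      have hSM : SameMarg G A := by
        refine ⟨fun a => (rowSum_colSwap {i, j} x y G a).symm, fun b => ?_⟩
        refine (card_filter_true_eq_iff i j hij (fun k => G k b) (fun k => A k b)
          (fun k hki hkj => by rw [hAk k hki hkj])).mpr ?_
        simp only [hAi, hAj]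
        by_cases hbx : b = x
        · rw [hbx, Equiv.swap_apply_left, hGx, hGjx, hGy, hGjy]
          simp
        · by_cases hby : b = y
          · rw [hby, Equiv.swap_apply_right, hGx, hGjx, hGy, hGjy]
            simp
          · rw [Equiv.swap_apply_of_ne_of_ne hbx hby]
      have hrelA : RelP i j A H := by
        refine ⟨fun k hki hkj => by rw [hAk k hki hkj, hother k hki hkj], fun a => ?_, fun b => ?_⟩
        · rw [← hSM.1 a, hrows a]
        · rw [← hSM.2 b, hcols b]
      have hlt : (univ.filter (fun b => A i b ≠ H i b)).card < n := by
        rw [← hn]
        apply Finset.card_lt_card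
        rw [Finset.ssubset_iff_of_subset]
        · refine ⟨x, ?_, ?_⟩
          · rw [mem_filter]
            refine ⟨mem_univ _, ?_⟩
            rw [hGx, hHx]
            exact Bool.noConfusion
          · rw [mem_filter]
            intro h
            apply h.2
            rw [hAi, Equiv.swap_apply_left, hGy, hHx]
        · intro b hb
          rw [mem_filter] at hb ⊢
          refine ⟨mem_univ _, fun hGH => hb.2 ?_⟩
          rw [hAi]
          by_cases hbx : b = x
          · rw [hbx, hGx, hHx] at hGH
            exact Bool.noConfusion hGH
          · by_cases hby : b = y
            · rw [hby, hGy, hHy] at hGH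
              exact Bool.noConfusion hGH
            · rw [Equiv.swap_apply_of_ne_of_ne hbx hby, hGH]
      have hfA : f G = f A := hf G x y hSM
      rw [hfA]
      exact ih _ hlt A rfl hrelA

end Vale.Agent.H7
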